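import Vale.Agent.P166.All

open MeasureTheory Filter Topology

/-- The limiting pressure of the orthogonally invariant Ising model: for every inverse temperature
and every compactly supported limiting spectral law, the pressure converges in `L¹` to the limit of
the `n`-level variational values. -/
theorem Vale.Agent.Results.P166.Pressure.result (β : ℝ) (hβ : 0 < β) (μ : Measure ℝ)
    [IsProbabilityMeasure μ] (hc : IsCompact μ.support) (lam : ∀ N : ℕ, Fin N → ℝ)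
    (hw : ∀ f : BoundedContinuousFunction ℝ ℝ,
      Tendsto (fun N : ℕ => (∑ i, f (lam N i)) / (N : ℝ)) atTop (𝓝 (∫ t, f t ∂μ)))
    (hmin : Tendsto (fun N : ℕ => ⨅ i, lam N i) atTop (𝓝 (sInf μ.support)))
    (hmax : Tendsto (fun N : ℕ => ⨆ i, lam N i) atTop (𝓝 (sSup μ.support)))
    [∀ N : ℕ, MeasurableSpace (Matrix.orthogonalGroup (Fin N) ℝ)]
    [∀ N : ℕ, BorelSpace (Matrix.orthogonalGroup (Fin N) ℝ)]
    (ν : ∀ N : ℕ, Measure (Matrix.orthogonalGroup (Fin N) ℝ))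
    (hp : ∀ N, IsProbabilityMeasure (ν N)) (hl : ∀ N, (ν N).IsMulLeftInvariant) :
    (∀ x, 0 ≤ x → BddBelow ((fun b => b - 1 - ∫ t, Real.log (b - x * t) ∂μ) ''
      Set.Ioi (x * sSup μ.support))) ∧
    (∀ n, 1 ≤ n → (∀ p, Vale.Agent.P157.Path n p → p 0 = 1 →
      BddAbove (Vale.Agent.P157.dualSet n p)) ∧
      BddBelow (Vale.Agent.P166.vals n (fun x => Vale.Agent.P166.Gmu μ (β * x)))) ∧
    (∀ N, Integrable (Vale.Agent.P166.PN β (lam N)) (ν N)) ∧
    ∃ l : ℝ, Tendsto (fun n => Vale.Agent.P166.Vo n β μ) atTop (𝓝 l) ∧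
      Tendsto (fun N : ℕ => ∫ U, |Vale.Agent.P166.PN β (lam N) U - l| ∂ν N) atTop (𝓝 0) :=
  Vale.Agent.P166.oim β hβ μ hc lam hw hmin hmax ν hp hl
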